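import Vale.Agent.P331.H498.Ten
import Vale.Agent.P331.H489.Rows

/-!
# Constants and two statements
-/

set_option autoImplicit false
set_option linter.unusedSectionVars false

namespace Vale.Agent.P331.H498

open Finset Vale.Agent.P331.H489
open scoped Classical

/-- size of the contexts at level `j` -/
def kap (j : ℕ) : ℕ := 224 ^ j - 1
/-- number of samples at level `j` -/
def mm (j : ℕ) : ℕ := 2 ^ 224 ^ j
/-- threshold at level `j` -/
noncomputable def ep (j : ℕ) : ℝ := (2⁻¹ : ℝ) ^ (16 * 224 ^ j)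
/-- thresholds depending on the size of the context -/
noncomputable def thr (j y : ℕ) : ℝ := ep j * (1 + 1 / ((y : ℝ) + 1))
/-- price of an element of the test set against an element of a pool -/
noncomputable def lam0 : ℝ := 2 ^ 21504
/-- the rate of the test set -/
noncomputable def pp : ℝ := (2⁻¹ : ℝ) ^ 21527
/-- significance at level `j` -/
noncomputable def sg (j : ℕ) : ℝ := ep j / (((kap j : ℝ) + 1) * ((kap j : ℝ) + 2))

/-- the bound of one step -/
noncomputable def QQ (j : ℕ) : ℝ := (mm j : ℝ) * ((1 / lam0) ^ (kap j + 1) +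
  mm (j + 1) * ((2 ^ (kap (j + 1) + 1) * (2 * ep (j + 1))) ^ 6 * 2 ^ 8 / (ep j / 2) ^ 14) +
  (1 - ep j / 2) ^ mm (j + 1))

/-- the price of the significance -/
noncomputable def RR (j : ℕ) : ℝ := (mm j : ℝ) * (1 / ((1 / 2) ^ kap j * sg j) ^ 4)

/-- the numbers -/
def NUM : Prop := ∀ j : ℕ, QQ j * RR (j + 1) ≤ ((2⁻¹ : ℝ) ^ 224 ^ (j + 1)) ^ 2

section

variable {E : Type} [Fintype E] (M : Matroid E) (lt : E → E → Prop)

/-- `b` is pivotal for `z` in the random set `ν` -/
noncomputable def psi (b z : E) (ν : E → Bool) : ℝ :=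
  if cov M lt z (fun e => ν e = true ∨ e = b) ∧ ¬ cov M lt z (fun e => ν e = true) then 1 else 0

/-- `z` is not spanned by the random set `ν` -/
noncomputable def nsp (z : E) (ν : E → Bool) : ℝ :=
  if cov M lt z (fun e => ν e = true) then 0 else 1

end

/-- the entrance sum -/
def ENT : Prop := ∀ (E : Type) (_ : Fintype E) (M : Matroid E) (lt : E → E → Prop)
  (_ : IsStrictTotalOrder E lt), M.E = Set.univ → ∀ b : E,
  ∑ z ∈ univ.erase b, EX (fun _ : E => be) (psi M lt b z) ≤ 1 / th

end Vale.Agent.P331.H498
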