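import Vale.Agent.P331.H498.Ten
import Vale.Agent.P331.H379.JLabel

/-!
# One step of the chain
-/

set_option autoImplicit false
set_option linter.unusedSectionVars false

namespace Vale.Agent.P331.H498

open Finset Vale.Agent.P331.H489 Vale.Agent.P331.H379
open scoped Classical

section gen

variable {E L C : Type*} [Fintype E] [DecidableEq E] [Fintype L] [DecidableEq L]
  [Fintype C] [DecidableEq C]

/-- composition of kernels -/
theorem EX_comp (u : E → C → ℝ) (K : E → C → L → ℝ) (φ : (E → L) → ℝ) :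
    EX (fun e l => ∑ s, u e s * K e s l) φ = EX u (fun s => EX (fun e => K e (s e)) φ) := by
  unfold EX
  simp only [mul_sum]
  rw [sum_comm]
  refine sum_congr rfl fun ν _ => ?_
  rw [Finset.prod_univ_sum, Fintype.piFinset_univ, sum_mul]
  refine sum_congr rfl fun s _ => ?_
  rw [prod_mul_distrib]
  ring

/-- independent samples -/
theorem EX_pi {m : ℕ} (u : C → ℝ) (f : Fin m → (E → C) → ℝ) :
    EX (fun (_ : E) (t : Fin m → C) => ∏ i, u (t i)) (fun σ => ∏ i, f i (fun e => σ e i)) =
      ∏ i, EX (fun _ : E => u) (f i) := by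
  unfold EX
  rw [Finset.prod_univ_sum, Fintype.piFinset_univ]
  refine Fintype.sum_equiv (Equiv.piComm fun (_ : E) (_ : Fin m) => C) _ _ fun σ => ?_
  rw [prod_mul_distrib, prod_comm]
  rfl

theorem EX_single {m : ℕ} (u : C → ℝ) (hu : ∑ c, u c = 1) (i : Fin m) (f : (E → C) → ℝ) :
    EX (fun (_ : E) (t : Fin m → C) => ∏ i, u (t i)) (fun σ => f (fun e => σ e i)) =
      EX (fun _ : E => u) f := by
  have h := EX_pi (E := E) u (fun k s => if k = i then f s else 1)
  have e1 : (fun σ : E → Fin m → C => ∏ k, (if k = i then f (fun e => σ e k) else 1)) =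
      fun σ => f (fun e => σ e i) := by
    funext σ
    rw [prod_ite_eq' univ i (fun k => f fun e => σ e k), if_pos (mem_univ i)]
  have e2 : ∏ k : Fin m, EX (fun _ : E => u) (fun s => if k = i then f s else 1) =
      EX (fun _ : E => u) f := by
    rw [prod_eq_single i]
    · simp
    · intro k _ hk
      simp only [if_neg hk]
      exact EX_one _ (fun _ => hu) 1
    · intro h
      exact absurd (mem_univ i) h
  rw [e1, e2] at h
  exact h

theorem EX_swap (w : E → L → ℝ) (u : E → C → ℝ) (F : (E → L) → (E → C) → ℝ) :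
    EX w (fun ω => EX u (fun s => F ω s)) = EX u (fun s => EX w (fun ω => F ω s)) := by
  unfold EX
  simp only [mul_sum]
  rw [sum_comm]
  refine sum_congr rfl fun s _ => sum_congr rfl fun ω _ => ?_
  ring

end gen

/-- labels for one step: test set `v`, pool `h` of the lower level, class `c` of the upper level,
class `a` of the level above, `r`, others `o` -/
inductive Ls | v | h | c | a | r | o
  deriving DecidableEq

instance : Fintype Ls := ⟨{.v, .h, .c, .a, .r, .o}, by intro x; cases x <;> decide⟩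

theorem sum_Ls (f : Ls → ℝ) : ∑ l, f l = f .v + f .h + f .c + f .a + f .r + f .o := by
  have h : (univ : Finset Ls) = {.v, .h, .c, .a, .r, .o} := rfl
  rw [h, sum_insert (by decide), sum_insert (by decide), sum_insert (by decide),
    sum_insert (by decide), sum_insert (by decide), sum_singleton]
  ring

/-- the weights for one step -/
noncomputable def wS (p : ℝ) : Ls → ℝ
  | .v => p
  | .h => vv
  | .c => 1 / 8
  | .a => 1 / 8
  | .r => 1 / 4
  | .o => 1 - p - vv - 1 / 8 - 1 / 8 - 1 / 4

theorem wS_sum (p : ℝ) : ∑ l, wS p l = 1 := by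
  rw [sum_Ls]
  simp only [wS]
  ring

theorem wS_nonneg {p : ℝ} (hp : 0 ≤ p) (hp1 : p ≤ 1 / 8) (l : Ls) : 0 ≤ wS p l := by
  have h := vv_pos
  have h' : vv ≤ 1 / 8 := by unfold vv; norm_num
  cases l <;> simp only [wS] <;> linarith

/-- the law of a bit -/
noncomputable def ub (s : Bool) : ℝ := if s = true then gam else 1 - gam

theorem ub_nonneg (s : Bool) : 0 ≤ ub s := by
  have h1 := gam_pos
  have h2 := gam_lt
  unfold ub
  split_ifs <;> linarith

theorem ub_sum : ∑ s, ub s = 1 := by
  rw [Fintype.sum_bool]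
  simp [ub]

/-- the role of a label at the upper level -/
def rJ (s : Bool) : Ls → Ro
  | .v => .x
  | .h => .x
  | .c => if s = true then .g else .o
  | .a => .a
  | .r => .r
  | .o => .o

/-- the role of a label at the upper level, without the test set -/
def rN (s : Bool) : Ls → Ro
  | .v => .o
  | .h => .x
  | .c => if s = true then .g else .o
  | .a => .a
  | .r => .r
  | .o => .o

/-- the role of a label at the lower level -/
def rj : Ls → Ro
  | .v => .x
  | .h => .g
  | .c => .a
  | .a => .o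
  | .r => .r
  | .o => .o

/-- the law at the lower level of the pool alone -/
noncomputable def kC : Ls → Bool → ℝ
  | .v, s => if s = true then 0 else 1
  | .h, s => if s = true then 1 else 0
  | .c, s => if s = true then gam else 1 - gam
  | .a, s => if s = true then 0 else 1
  | .r, s => if s = true then tau else 1 - tau
  | .o, s => if s = true then 0 else 1

section

variable {E : Type*} [Fintype E]

/-- the probability that the random set with roles `μ` and context `Y` misses -/
noncomputable def mis (φ : (E → Bool) → ℝ) (μ : E → Ro) (Y : Finset E) : ℝ :=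
  EX (fun e => kk (μ e) (decide (e ∈ Y))) φ

/-- a small context violates -/
def Vio (φ : (E → Bool) → ℝ) (μ : E → Ro) (k : ℕ) (θ : ℕ → ℝ) (A : Finset E) : Prop :=
  ∃ Y ⊆ A, Y.card ≤ k ∧ mis φ μ Y ≤ θ Y.card

theorem Vio_mono {φ : (E → Bool) → ℝ} {μ : E → Ro} {k : ℕ} {θ : ℕ → ℝ} {A B : Finset E}
    (h : A ⊆ B) (hA : Vio φ μ k θ A) : Vio φ μ k θ B := by
  obtain ⟨Y, h1, h2⟩ := hA
  exact ⟨Y, h1.trans h, h2⟩

/-- all samples violate -/
def FJ {m : ℕ} (φ : (E → Bool) → ℝ) (k : ℕ) (θ : ℕ → ℝ) (σ : E → Fin m → Bool) (β : E → Ls)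
    (A : Finset E) : Prop :=
  ∀ i, Vio φ (fun e => rJ (σ e i) (β e)) k θ A

/-- the event of the step -/
def EvS {m : ℕ} (φ : (E → Bool) → ℝ) (kJ kj : ℕ) (θJ θj : ℕ → ℝ) (σ : E → Fin m → Bool)
    (β : E → Ls) : Prop :=
  ∃ K : Finset E, (∀ e ∈ K, β e = .v) ∧ FJ φ kJ θJ σ β K ∧ ¬ Vio φ (fun e => rj (β e)) kj θj K

theorem sim_rJ {β β' : E → Ls} (h : Sim Ls.v Ls.h β β') (e : E) (s : Bool) :
    rJ s (β e) = rJ s (β' e) := by
  rcases h e with h1 | ⟨h1 | h1, h2 | h2⟩
  · rw [h1]
  all_goals simp only [h1, h2, rJ]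

theorem mis_le_one {φ : (E → Bool) → ℝ} (hφ1 : ∀ ν, φ ν ≤ 1) (μ : E → Ro) (Y : Finset E) :
    mis φ μ Y ≤ 1 := by
  unfold mis
  refine (EX_mono (fun e l => kk_nonneg _ _ _) hφ1).trans (le_of_eq ?_)
  exact EX_one _ (fun e => kk_sum _ _) 1

/-- `J*` -/
theorem step_j {m : ℕ} {p lam : ℝ} (hp : 0 ≤ p) (hp1 : p ≤ 1 / 8) (hlam : 1 ≤ lam)
    (hl : lam * p ≤ vv) (φ : (E → Bool) → ℝ) (kJ kj : ℕ) (θJ θj : ℕ → ℝ) {δ : ℝ}
    (hθj : ∀ y ≤ kj, δ ≤ θj y) (σ : E → Fin m → Bool) :
    EX (fun _ : E => wS p) (fun β => if EvS φ kJ kj θJ θj σ β then (1 : ℝ) else 0) ≤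
      (1 / lam) ^ (kj + 1) +
      EX (fun _ : E => wS p) (fun β => if FJ φ kJ θJ σ β (lab .h β) ∧
        δ < EX (fun e => kC (β e)) φ then (1 : ℝ) else 0) := by
  have hw : ∀ (e : E) (l : Ls), 0 ≤ wS p l := fun _ l => wS_nonneg hp hp1 l
  have hlam0 : 0 < lam := by linarith
  let K : (E → Ls) → Finset E := fun β =>
    if h : EvS φ kJ kj θJ θj σ β then h.choose else ∅
  have hKs : ∀ β, EvS φ kJ kj θJ θj σ β → (∀ e ∈ K β, β e = .v) ∧ FJ φ kJ θJ σ β (K β) ∧
      ¬ Vio φ (fun e => rj (β e)) kj θj (K β) := by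
    intro β h
    have : K β = h.choose := dif_pos h
    rw [this]
    exact h.choose_spec
  obtain ⟨U, hU1, hU2, hU3⟩ := jstar_label' Ls.v Ls.h (by decide) (fun _ : E => wS p) hw lam hlam
    (fun e => hl) (FJ φ kJ θJ σ) (fun ω A B hAB h i => Vio_mono hAB (h i))
    (fun ω ω' hs A h i => by
      have := h i
      have e1 : (fun e => rJ (σ e i) (ω e)) = fun e => rJ (σ e i) (ω' e) := by
        funext e
        exact sim_rJ hs e _
      rw [e1] at this
      exact this)
    (EvS φ kJ kj θJ θj σ) K (fun ω h => ⟨(hKs ω h).1, (hKs ω h).2.1⟩)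
  have h3 := hU3 (kj + 1) (fun _ => wS_sum p)
  have h3' : EX (fun _ : E => wS p) (fun β => if EvS φ kJ kj θJ θj σ β ∧ kj + 1 ≤ (U β).card
      then (1 : ℝ) else 0) ≤ (1 / lam) ^ (kj + 1) := by
    rw [one_div_pow, le_div_iff₀ (pow_pos hlam0 _), mul_comm]
    exact h3
  have h2 := hU2 (fun β => if δ < EX (fun e => kC (β e)) φ then 1 else 0)
    (fun β => by split_ifs <;> norm_num)
  have h4 : ∀ β : E → Ls, (if EvS φ kJ kj θJ θj σ β then (1 : ℝ) else 0) ≤
      (if EvS φ kJ kj θJ θj σ β ∧ kj + 1 ≤ (U β).card then 1 else 0) +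
      (if EvS φ kJ kj θJ θj σ β then
        (if δ < EX (fun e => kC (H379.flip .h (U β) β e)) φ then 1 else 0) else 0) := by
    intro β
    by_cases hE : EvS φ kJ kj θJ θj σ β
    · by_cases hc : kj + 1 ≤ (U β).card
      · rw [if_pos hE, if_pos ⟨hE, hc⟩]
        have : (0 : ℝ) ≤ if EvS φ kJ kj θJ θj σ β then
          (if δ < EX (fun e => kC (H379.flip .h (U β) β e)) φ then 1 else 0) else 0 := by
          split_ifs <;> norm_num
        linarith
      · have hUK := (hU1 β hE).1
        have hv := (hKs β hE).1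
        have hn := (hKs β hE).2.2
        have e1 : mis φ (fun e => rj (β e)) (U β) = EX (fun e => kC (H379.flip .h (U β) β e)) φ := by
          unfold mis
          congr 1
          funext e s
          by_cases he : e ∈ U β
          · have h5 := hv e (hUK he)
            have hd := decide_eq_true he
            simp only [H379.flip, if_pos he, h5, rj, kk, kC, hd]
          · have hd := decide_eq_false he
            simp only [H379.flip, if_neg he, hd]
            cases β e <;> cases s <;> simp [rj, kk, kC]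
        have h6 : δ < EX (fun e => kC (H379.flip .h (U β) β e)) φ := by
          rw [← e1]
          refine (hθj (U β).card (by omega)).trans_lt ?_
          by_contra hcon
          exact hn ⟨U β, hUK, by omega, not_lt.1 hcon⟩
        rw [if_pos hE, if_neg (fun h => hc h.2), if_pos hE, if_pos h6]
        norm_num
    · rw [if_neg hE, if_neg (fun h => hE h.1), if_neg hE]
      norm_num
  have h5 := EX_mono hw h4
  rw [EX_add] at h5
  refine h5.trans (add_le_add h3' (h2.trans (le_of_eq ?_)))
  congr 1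
  funext β
  by_cases h6 : FJ φ kJ θJ σ β (lab .h β)
  · by_cases h7 : δ < EX (fun e => kC (β e)) φ
    · simp [h6, h7]
    · simp [h6, h7]
  · simp [h6]

/-- the law at the lower level is an average over the sample of the upper level -/
theorem kC_avg (φ : (E → Bool) → ℝ) (β : E → Ls) :
    EX (fun e => kC (β e)) φ =
      EX (fun _ : E => ub) (fun s => EX (fun e => kb (rN (s e) (β e))) φ) := by
  rw [← EX_comp (fun _ : E => ub) (fun e s => kb (rN s (β e))) φ]
  congr 1
  funext e l
  rw [Fintype.sum_bool]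
  cases β e <;> cases l <;> simp [kC, kb, rN, ub] <;> ring

theorem push_rN {p : ℝ} (c : Ro) :
    ∑ l : Ls × Bool with rN l.2 l.1 = c, wS p l.1 * ub l.2 = wJ c := by
  rw [sum_filter, Fintype.sum_prod_type, sum_Ls]
  simp only [Fintype.sum_bool]
  have hg : (1 / 8 : ℝ) * gam = vv := by
    unfold gam vv
    norm_num
  cases c <;> simp [rN, wS, ub, wJ] <;> linarith

/-- **The step.** -/
theorem step_bound (h1 : S1) {m : ℕ} {p lam : ℝ} (hp : 0 ≤ p) (hp1 : p ≤ 1 / 8) (hlam : 1 ≤ lam)
    (hl : lam * p ≤ vv) (φ : (E → Bool) → ℝ) (hφ : ∀ ν, 0 ≤ φ ν) (hφ1 : ∀ ν, φ ν ≤ 1)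
    (hd : Antitone φ) (kJ kj : ℕ) (θJ θj : ℕ → ℝ) {δ α : ℝ}
    (hθj : ∀ y ≤ kj, δ ≤ θj y) (hθJ : ∀ y ≤ kJ, θJ y ≤ α) (hα : 0 < α) (hα1 : α ≤ 1)
    (hδ : 0 < δ) (hδ1 : δ ≤ 1) :
    EX (fun (_ : E) (t : Fin m → Bool) => ∏ i, ub (t i)) (fun σ => EX (fun _ : E => wS p)
      (fun β => if EvS φ kJ kj θJ θj σ β then (1 : ℝ) else 0)) ≤
      (1 / lam) ^ (kj + 1) + m * ((2 ^ (kJ + 1) * α) ^ 6 * 2 ^ 8 / (δ / 2) ^ 14) +
        (1 - δ / 2) ^ m := by
  have hw : ∀ (e : E) (l : Ls), 0 ≤ wS p l := fun _ l => wS_nonneg hp hp1 l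
  have hu : ∀ (e : E) (t : Fin m → Bool), 0 ≤ ∏ i, ub (t i) := fun _ t =>
    prod_nonneg fun i _ => ub_nonneg _
  have husum : ∀ e : E, ∑ t : Fin m → Bool, ∏ i, ub (t i) = 1 := by
    intro _
    have := Finset.prod_univ_sum (fun _ : Fin m => (univ : Finset Bool)) (fun _ s => ub s)
    rw [Fintype.piFinset_univ] at this
    rw [← this, prod_congr rfl fun i _ => ub_sum, prod_const_one]
  -- the two bad events
  set Bf : (E → Ls) → (E → Bool) → ℝ := fun β s => EX (fun e => kb (rN (s e) (β e))) φ with hBf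
  have hB0 : ∀ β s, 0 ≤ Bf β s := fun β s => EX_nonneg (fun e l => kb_nonneg _ _) hφ
  have hB1 : ∀ β s, Bf β s ≤ 1 := fun β s =>
    (EX_mono (fun e l => kb_nonneg _ _) hφ1).trans (le_of_eq (EX_one _ (fun e => kb_sum _) 1))
  set G1 : (E → Ls) → (E → Bool) → ℝ := fun β s =>
    if Vio φ (fun e => rJ (s e) (β e)) kJ θJ (lab .h β) ∧ δ / 2 < Bf β s then 1 else 0 with hG1
  have main : ∀ (σ : E → Fin m → Bool) (β : E → Ls),
      (if FJ φ kJ θJ σ β (lab .h β) ∧ δ < EX (fun e => kC (β e)) φ then (1 : ℝ) else 0) ≤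
      (∑ i, G1 β (fun e => σ e i)) +
        (if δ < EX (fun e => kC (β e)) φ then
          ∏ i, (if Bf β (fun e => σ e i) ≤ δ / 2 then (1 : ℝ) else 0) else 0) := by
    intro σ β
    have s0 : 0 ≤ ∑ i, G1 β (fun e => σ e i) :=
      sum_nonneg fun i _ => by simp only [hG1]; split_ifs <;> norm_num
    have s1 : (0 : ℝ) ≤ if δ < EX (fun e => kC (β e)) φ then
          ∏ i, (if Bf β (fun e => σ e i) ≤ δ / 2 then (1 : ℝ) else 0) else 0 := by
      split_ifs
      · exact prod_nonneg fun i _ => by split_ifs <;> norm_num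
      · exact le_rfl
    by_cases h : FJ φ kJ θJ σ β (lab .h β) ∧ δ < EX (fun e => kC (β e)) φ
    · rw [if_pos h]
      by_cases hall : ∀ i, Bf β (fun e => σ e i) ≤ δ / 2
      · rw [if_pos h.2, prod_congr rfl fun i _ => if_pos (hall i), prod_const_one]
        linarith
      · push Not at hall
        obtain ⟨i, hi⟩ := hall
        have : G1 β (fun e => σ e i) = 1 := if_pos ⟨h.1 i, hi⟩
        have h2 : G1 β (fun e => σ e i) ≤ ∑ i, G1 β (fun e => σ e i) :=
          single_le_sum (f := fun i => G1 β (fun e => σ e i))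
            (fun i _ => by simp only [hG1]; split_ifs <;> norm_num) (mem_univ i)
        linarith
    · rw [if_neg h]
      linarith
  -- first bad event
  have b1 : EX (fun _ : E => ub) (fun s => EX (fun _ : E => wS p) (fun β => G1 β s)) ≤
      (2 ^ (kJ + 1) * α) ^ 6 * 2 ^ 8 / (δ / 2) ^ 14 := by
    rw [← EX_swap]
    set EvR : (E → Ro) → Prop := fun μ => (∃ y : E → Bool,
      (univ.filter fun e => y e = true).card ≤ kJ ∧ EX (fun e => kk (μ e) (y e)) φ ≤ α) ∧
      δ / 2 ≤ EX (fun e => kb (μ e)) φ with hEvR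
    have c1 : ∀ β s, G1 β s ≤ if EvR (fun e => rN (s e) (β e)) then 1 else 0 := by
      intro β s
      simp only [hG1]
      by_cases hg : Vio φ (fun e => rJ (s e) (β e)) kJ θJ (lab .h β) ∧ δ / 2 < Bf β s
      · rw [if_pos hg]
        obtain ⟨⟨Y, hY, hc, hm⟩, hb⟩ := hg
        have : EvR (fun e => rN (s e) (β e)) := by
          refine ⟨⟨fun e => decide (e ∈ Y), ?_, ?_⟩, hb.le⟩
          · have : (univ.filter fun e => decide (e ∈ Y) = true) = Y := by
              ext e
              simp
            rw [this]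
            exact hc
          · refine le_trans (le_of_eq ?_) (hm.trans (hθJ _ hc))
            unfold mis
            congr 1
            funext e l
            by_cases he : e ∈ Y
            · have h5 := mem_lab.1 (hY he)
              simp only [h5, rN, rJ]
            · have hd := decide_eq_false he
              simp only [hd]
              cases β e <;> cases l <;> simp [rN, rJ, kk]
        rw [if_pos this]
      · rw [if_neg hg]
        split_ifs <;> norm_num
    have c2 : EX (fun _ : E => wS p) (fun β => EX (fun _ : E => ub) (fun s => G1 β s)) ≤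
        EX (fun _ : E => wJ) (fun μ => if EvR μ then 1 else 0) := by
      have d1 := EX_mono (w := fun _ : E => wS p) hw (F := fun β =>
        EX (fun _ : E => ub) (fun s => G1 β s)) (G := fun β => EX (fun _ : E => ub)
          (fun s => if EvR (fun e => rN (s e) (β e)) then 1 else 0))
        (fun β => EX_mono (fun _ s => ub_nonneg s) fun s => c1 β s)
      refine d1.trans (le_of_eq ?_)
      rw [← EX_prod (fun _ : E => wS p) (fun _ : E => ub)
        (fun β s => if EvR (fun e => rN (s e) (β e)) then (1 : ℝ) else 0)]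
      have d2 := EX_push (fun l : Ls × Bool => rN l.2 l.1) (fun (_ : E) (x : Ls × Bool) =>
        wS p x.1 * ub x.2) (fun μ => if EvR μ then (1 : ℝ) else 0)
      refine Eq.trans ?_ (d2.trans ?_)
      · rfl
      · congr 1
        funext e c
        exact push_rN c
    have c3 := jrl_event h1 φ hφ hφ1 hd EvR (by linarith : (0 : ℝ) ≤ δ / 2) hα hα1 kJ
      (fun μ h => h)
    rw [le_div_iff₀ (by positivity), mul_comm]
    refine le_trans ?_ c3
    exact mul_le_mul_of_nonneg_left c2 (by positivity)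
  -- second bad event
  have b2 : ∀ β : E → Ls, δ < EX (fun e => kC (β e)) φ →
      EX (fun _ : E => ub) (fun s => if Bf β s ≤ δ / 2 then (1 : ℝ) else 0) ≤ 1 - δ / 2 := by
    intro β h
    rw [kC_avg] at h
    have c1 : EX (fun _ : E => ub) (fun s => Bf β s) ≤ EX (fun _ : E => ub)
        (fun s => (1 + δ / 2) - (if Bf β s ≤ δ / 2 then (1 : ℝ) else 0)) := by
      refine EX_mono (fun _ s => ub_nonneg s) fun s => ?_
      by_cases hs : Bf β s ≤ δ / 2
      · rw [if_pos hs]
        linarith
      · rw [if_neg hs]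
        have := hB1 β s
        linarith
    rw [EX_sub, EX_one _ (fun _ => ub_sum)] at c1
    have h' : δ < EX (fun _ : E => ub) (fun s => Bf β s) := h
    linarith
  -- conclusion
  have hj : ∀ σ : E → Fin m → Bool, EX (fun _ : E => wS p)
      (fun β => if EvS φ kJ kj θJ θj σ β then (1 : ℝ) else 0) ≤ (1 / lam) ^ (kj + 1) +
      EX (fun _ : E => wS p) (fun β => (∑ i, G1 β (fun e => σ e i)) +
        (if δ < EX (fun e => kC (β e)) φ then
          ∏ i, (if Bf β (fun e => σ e i) ≤ δ / 2 then (1 : ℝ) else 0) else 0)) := fun σ =>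
    (step_j hp hp1 hlam hl φ kJ kj θJ θj hθj σ).trans
      (add_le_add le_rfl (EX_mono hw (main σ)))
  refine (EX_mono hu hj).trans ?_
  rw [EX_add, EX_one _ husum]
  have e1 : EX (fun (_ : E) (t : Fin m → Bool) => ∏ i, ub (t i)) (fun σ =>
      EX (fun _ : E => wS p) (fun β => (∑ i, G1 β (fun e => σ e i)) +
        (if δ < EX (fun e => kC (β e)) φ then
          ∏ i, (if Bf β (fun e => σ e i) ≤ δ / 2 then (1 : ℝ) else 0) else 0))) =
      ∑ _i : Fin m, EX (fun _ : E => ub) (fun s => EX (fun _ : E => wS p) (fun β => G1 β s)) +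
      EX (fun _ : E => wS p) (fun β => if δ < EX (fun e => kC (β e)) φ then
        (EX (fun _ : E => ub) (fun s => if Bf β s ≤ δ / 2 then (1 : ℝ) else 0)) ^ m else 0) := by
    have f1 : ∀ σ : E → Fin m → Bool, EX (fun _ : E => wS p) (fun β => (∑ i, G1 β (fun e => σ e i)) +
        (if δ < EX (fun e => kC (β e)) φ then
          ∏ i, (if Bf β (fun e => σ e i) ≤ δ / 2 then (1 : ℝ) else 0) else 0)) =
        (∑ i, EX (fun _ : E => wS p) (fun β => G1 β (fun e => σ e i))) +
        EX (fun _ : E => wS p) (fun β => if δ < EX (fun e => kC (β e)) φ then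
          ∏ i, (if Bf β (fun e => σ e i) ≤ δ / 2 then (1 : ℝ) else 0) else 0) := by
      intro σ
      rw [EX_add, EX_sum]
    simp only [f1]
    rw [EX_add, EX_sum]
    congr 1
    · refine sum_congr rfl fun i _ => ?_
      exact EX_single ub ub_sum i (fun s => EX (fun _ : E => wS p) (fun β => G1 β s))
    · rw [EX_swap (fun (_ : E) (t : Fin m → Bool) => ∏ i, ub (t i)) (fun _ : E => wS p)]
      congr 1
      funext β
      by_cases hb : δ < EX (fun e => kC (β e)) φ
      · simp only [if_pos hb]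
        rw [EX_pi ub (fun _ s => if Bf β s ≤ δ / 2 then (1 : ℝ) else 0), prod_const, card_univ,
          Fintype.card_fin]
      · simp only [if_neg hb]
        simp [EX]
  rw [e1, sum_const, card_univ, Fintype.card_fin, nsmul_eq_mul, ← add_assoc]
  have e2 : EX (fun _ : E => wS p) (fun β => if δ < EX (fun e => kC (β e)) φ then
        (EX (fun _ : E => ub) (fun s => if Bf β s ≤ δ / 2 then (1 : ℝ) else 0)) ^ m else 0) ≤
      (1 - δ / 2) ^ m := by
    have : EX (fun _ : E => wS p) (fun _ => (1 - δ / 2) ^ m) = (1 - δ / 2) ^ m :=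
      EX_one _ (fun _ => wS_sum p) _
    rw [← this]
    refine EX_mono hw fun β => ?_
    split_ifs with hb
    · refine pow_le_pow_left₀ (EX_nonneg (fun _ s => ub_nonneg s) fun s => ?_) (b2 β hb) m
      split_ifs <;> norm_num
    · exact pow_nonneg (by linarith) m
  have e3 : (m : ℝ) * EX (fun _ : E => ub) (fun s => EX (fun _ : E => wS p) (fun β => G1 β s)) ≤
      m * ((2 ^ (kJ + 1) * α) ^ 6 * 2 ^ 8 / (δ / 2) ^ 14) :=
    mul_le_mul_of_nonneg_left b1 (Nat.cast_nonneg m)
  linarith

end

end Vale.Agent.P331.H498
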