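import Vale.Agent.P331.H489.Ex

/-!
# Two tensor inequalities
-/

set_option autoImplicit false
set_option linter.unusedSectionVars false

namespace Vale.Agent.P331.H498

open Finset Vale.Agent.P331.H489

/-- roles: context set `x`, fixed `g`, thinned with the small rate `a`, thinned with the large
rate `r`, out `o` -/
inductive Ro | x | g | a | r | o
  deriving DecidableEq

instance : Fintype Ro := ⟨{.x, .g, .a, .r, .o}, by intro x; cases x <;> decide⟩

theorem sum_Ro (f : Ro → ℝ) : ∑ l, f l = f .x + f .g + f .a + f .r + f .o := by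
  have h : (univ : Finset Ro) = {.x, .g, .a, .r, .o} := rfl
  rw [h, sum_insert (by decide), sum_insert (by decide), sum_insert (by decide),
    sum_insert (by decide), sum_singleton]
  ring

/-- the small rate -/
noncomputable def gam : ℝ := (2⁻¹ : ℝ) ^ 20
/-- the large rate -/
noncomputable def tau : ℝ := (2⁻¹ : ℝ) ^ 8
/-- the rate of a pool -/
noncomputable def vv : ℝ := (2⁻¹ : ℝ) ^ 23
/-- the total natural rate -/
noncomputable def th : ℝ := (2⁻¹ : ℝ) ^ 22 + (2⁻¹ : ℝ) ^ 10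

theorem gam_pos : 0 < gam := by unfold gam; positivity
theorem gam_lt : gam < 1 := by unfold gam; norm_num
theorem tau_pos : 0 < tau := by unfold tau; positivity
theorem tau_lt : tau < 1 := by unfold tau; norm_num
theorem vv_pos : 0 < vv := by unfold vv; positivity
theorem th_pos : 0 < th := by unfold th; positivity
theorem th_lt : th < 1 := by unfold th; norm_num

/-- law of membership, given the role and the context bit -/
noncomputable def kk : Ro → Bool → Bool → ℝ
  | .x, y, s => if s = y then 1 else 0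
  | .g, _, s => if s = true then 1 else 0
  | .a, _, s => if s = true then gam else 1 - gam
  | .r, _, s => if s = true then tau else 1 - tau
  | .o, _, s => if s = true then 0 else 1

/-- law of membership: all of `x`, nothing of `a` -/
noncomputable def kb : Ro → Bool → ℝ
  | .x, s => if s = true then 1 else 0
  | .g, s => if s = true then 1 else 0
  | .a, s => if s = true then 0 else 1
  | .r, s => if s = true then tau else 1 - tau
  | .o, s => if s = true then 0 else 1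

theorem kk_nonneg (l : Ro) (y s : Bool) : 0 ≤ kk l y s := by
  have h1 := gam_pos
  have h2 := gam_lt
  have h3 := tau_pos
  have h4 := tau_lt
  cases l <;> simp only [kk] <;> split_ifs <;> linarith

theorem kb_nonneg (l : Ro) (s : Bool) : 0 ≤ kb l s := by
  have h3 := tau_pos
  have h4 := tau_lt
  cases l <;> simp only [kb] <;> split_ifs <;> linarith

theorem kk_sum (l : Ro) (y : Bool) : ∑ s, kk l y s = 1 := by
  rw [Fintype.sum_bool]
  cases l <;> cases y <;> simp [kk]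

theorem kb_sum (l : Ro) : ∑ s, kb l s = 1 := by
  rw [Fintype.sum_bool]
  cases l <;> simp [kb]

/-- recursive functionals -/
noncomputable def Rec (c : Ro → ℝ → ℝ → ℝ) : (n : ℕ) → ((Fin n → Bool) → ℝ) → (Fin n → Ro) → ℝ
  | 0, φ, _ => φ Fin.elim0
  | n + 1, φ, μ => c (μ 0) (Rec c n (fun ν => φ (Fin.cons false ν)) (fun i => μ i.succ))
      (Rec c n (fun ν => φ (Fin.cons true ν)) (fun i => μ i.succ))

/-- the maximum -/
noncomputable def cM : Ro → ℝ → ℝ → ℝ
  | .x, m0, m1 => max m0 (m1 / 2)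
  | .g, _, m1 => m1
  | .a, m0, m1 => (1 - gam) * m0 + gam * m1
  | .r, m0, m1 => (1 - tau) * m0 + tau * m1
  | .o, m0, _ => m0

/-- the minimum -/
noncomputable def cX : Ro → ℝ → ℝ → ℝ
  | .x, m0, m1 => min m0 (2 * m1)
  | .g, _, m1 => m1
  | .a, m0, m1 => (1 - gam) * m0 + gam * m1
  | .r, m0, m1 => (1 - tau) * m0 + tau * m1
  | .o, m0, _ => m0

/-- the average -/
noncomputable def cB : Ro → ℝ → ℝ → ℝ
  | .x, _, m1 => m1
  | .g, _, m1 => m1
  | .a, m0, _ => m0
  | .r, m0, m1 => (1 - tau) * m0 + tau * m1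
  | .o, m0, _ => m0

theorem Rec_cons (c : Ro → ℝ → ℝ → ℝ) (n : ℕ) (φ : (Fin (n + 1) → Bool) → ℝ) (l : Ro)
    (μ : Fin n → Ro) : Rec c (n + 1) φ (Fin.cons l μ) =
      c l (Rec c n (fun ν => φ (Fin.cons false ν)) μ) (Rec c n (fun ν => φ (Fin.cons true ν)) μ) :=
  rfl

theorem M_nonneg : ∀ (n : ℕ) (φ : (Fin n → Bool) → ℝ) (_ : ∀ ν, 0 ≤ φ ν) (μ : Fin n → Ro),
    0 ≤ Rec cM n φ μ
  | 0, φ, h, _ => h _
  | n + 1, φ, h, μ => by
    have i0 := M_nonneg n (fun ν => φ (Fin.cons false ν)) (fun ν => h _) (fun i => μ i.succ)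
    have i1 := M_nonneg n (fun ν => φ (Fin.cons true ν)) (fun ν => h _) (fun i => μ i.succ)
    have h1 := gam_pos
    have h2 := gam_lt
    have h3 := tau_pos
    have h4 := tau_lt
    rw [Rec]
    cases μ 0 with
    | x => exact le_max_of_le_left i0
    | g => exact i1
    | a => exact add_nonneg (mul_nonneg (by linarith) i0) (mul_nonneg h1.le i1)
    | r => exact add_nonneg (mul_nonneg (by linarith) i0) (mul_nonneg h3.le i1)
    | o => exact i0

/-- positivity and monotonicity of the minimum and of the average -/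
theorem X_pos : ∀ (n : ℕ) (φ : (Fin n → Bool) → ℝ) (_ : ∀ ν, 0 < φ ν) (μ : Fin n → Ro),
    0 < Rec cX n φ μ
  | 0, φ, h, _ => h _
  | n + 1, φ, h, μ => by
    have i0 := X_pos n (fun ν => φ (Fin.cons false ν)) (fun ν => h _) (fun i => μ i.succ)
    have i1 := X_pos n (fun ν => φ (Fin.cons true ν)) (fun ν => h _) (fun i => μ i.succ)
    have h1 := gam_pos
    have h2 := gam_lt
    have h3 := tau_pos
    have h4 := tau_lt
    rw [Rec]
    cases μ 0 with
    | x => exact lt_min i0 (by linarith)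
    | g => exact i1
    | a => exact add_pos (mul_pos (by linarith) i0) (mul_pos h1 i1)
    | r => exact add_pos (mul_pos (by linarith) i0) (mul_pos h3 i1)
    | o => exact i0

theorem B_nonneg : ∀ (n : ℕ) (φ : (Fin n → Bool) → ℝ) (_ : ∀ ν, 0 ≤ φ ν) (μ : Fin n → Ro),
    0 ≤ Rec cB n φ μ
  | 0, φ, h, _ => h _
  | n + 1, φ, h, μ => by
    have i0 := B_nonneg n (fun ν => φ (Fin.cons false ν)) (fun ν => h _) (fun i => μ i.succ)
    have i1 := B_nonneg n (fun ν => φ (Fin.cons true ν)) (fun ν => h _) (fun i => μ i.succ)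
    have h3 := tau_pos
    have h4 := tau_lt
    rw [Rec]
    cases μ 0 with
    | x => exact i1
    | g => exact i1
    | a => exact i0
    | r => exact add_nonneg (mul_nonneg (by linarith) i0) (mul_nonneg h3.le i1)
    | o => exact i0

theorem X_mono : ∀ (n : ℕ) (φ φ' : (Fin n → Bool) → ℝ) (_ : ∀ ν, φ ν ≤ φ' ν) (μ : Fin n → Ro),
    Rec cX n φ μ ≤ Rec cX n φ' μ
  | 0, φ, φ', h, _ => h _
  | n + 1, φ, φ', h, μ => by
    have i0 := X_mono n (fun ν => φ (Fin.cons false ν)) (fun ν => φ' (Fin.cons false ν))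
      (fun ν => h _) (fun i => μ i.succ)
    have i1 := X_mono n (fun ν => φ (Fin.cons true ν)) (fun ν => φ' (Fin.cons true ν))
      (fun ν => h _) (fun i => μ i.succ)
    have h1 := gam_pos
    have h2 := gam_lt
    have h3 := tau_pos
    have h4 := tau_lt
    rw [Rec, Rec]
    cases μ 0 with
    | x => exact min_le_min i0 (by linarith)
    | g => exact i1
    | a =>
      have q0 := mul_le_mul_of_nonneg_left i0 (by linarith : 0 ≤ 1 - gam)
      have q1 := mul_le_mul_of_nonneg_left i1 h1.le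
      exact add_le_add q0 q1
    | r =>
      have q0 := mul_le_mul_of_nonneg_left i0 (by linarith : 0 ≤ 1 - tau)
      have q1 := mul_le_mul_of_nonneg_left i1 h3.le
      exact add_le_add q0 q1
    | o => exact i0

theorem B_mono : ∀ (n : ℕ) (φ φ' : (Fin n → Bool) → ℝ) (_ : ∀ ν, φ ν ≤ φ' ν) (μ : Fin n → Ro),
    Rec cB n φ μ ≤ Rec cB n φ' μ
  | 0, φ, φ', h, _ => h _
  | n + 1, φ, φ', h, μ => by
    have i0 := B_mono n (fun ν => φ (Fin.cons false ν)) (fun ν => φ' (Fin.cons false ν))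
      (fun ν => h _) (fun i => μ i.succ)
    have i1 := B_mono n (fun ν => φ (Fin.cons true ν)) (fun ν => φ' (Fin.cons true ν))
      (fun ν => h _) (fun i => μ i.succ)
    have h3 := tau_pos
    have h4 := tau_lt
    rw [Rec, Rec]
    cases μ 0 with
    | x => exact i1
    | g => exact i1
    | a => exact i0
    | r =>
      have q0 := mul_le_mul_of_nonneg_left i0 (by linarith : 0 ≤ 1 - tau)
      have q1 := mul_le_mul_of_nonneg_left i1 h3.le
      exact add_le_add q0 q1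
    | o => exact i0

theorem EX_kk_cons {n : ℕ} (φ : (Fin (n + 1) → Bool) → ℝ) (μ : Fin (n + 1) → Ro)
    (y : Fin (n + 1) → Bool) :
    EX (fun i => kk (μ i) (y i)) φ =
      kk (μ 0) (y 0) true * EX (fun i : Fin n => kk (μ i.succ) (y i.succ))
        (fun ν => φ (Fin.cons true ν)) +
      kk (μ 0) (y 0) false * EX (fun i : Fin n => kk (μ i.succ) (y i.succ))
        (fun ν => φ (Fin.cons false ν)) := by
  rw [EX_cons, Fintype.sum_bool]

theorem EX_kb_cons {n : ℕ} (φ : (Fin (n + 1) → Bool) → ℝ) (μ : Fin (n + 1) → Ro) :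
    EX (fun i => kb (μ i)) φ =
      kb (μ 0) true * EX (fun i : Fin n => kb (μ i.succ)) (fun ν => φ (Fin.cons true ν)) +
      kb (μ 0) false * EX (fun i : Fin n => kb (μ i.succ)) (fun ν => φ (Fin.cons false ν)) := by
  rw [EX_cons, Fintype.sum_bool]

theorem EX_zero_fin (w : Fin 0 → Bool → ℝ) (φ : (Fin 0 → Bool) → ℝ) :
    EX w φ = φ Fin.elim0 := by
  simp only [EX, Fintype.sum_unique, univ_eq_empty, prod_empty, one_mul]
  exact congrArg φ (Subsingleton.elim _ _)

theorem EX_kb : ∀ (n : ℕ) (φ : (Fin n → Bool) → ℝ) (μ : Fin n → Ro),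
    EX (fun i => kb (μ i)) φ = Rec cB n φ μ
  | 0, φ, μ => EX_zero_fin _ _
  | n + 1, φ, μ => by
    rw [EX_kb_cons, EX_kb n, EX_kb n, Rec]
    cases μ 0 <;> simp [kb, cB]
    ring

theorem le_M : ∀ (n : ℕ) (φ : (Fin n → Bool) → ℝ) (_ : ∀ ν, 0 ≤ φ ν) (μ : Fin n → Ro)
    (y : Fin n → Bool),
    (∏ i, if y i = true then (1 / 2 : ℝ) else 1) * EX (fun i => kk (μ i) (y i)) φ ≤ Rec cM n φ μ
  | 0, φ, _, μ, y => by
    rw [EX_zero_fin]
    simp [Rec]
  | n + 1, φ, hφ, μ, y => by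
    have i0 := le_M n (fun ν => φ (Fin.cons false ν)) (fun ν => hφ _) (fun i => μ i.succ)
      (fun i => y i.succ)
    have i1 := le_M n (fun ν => φ (Fin.cons true ν)) (fun ν => hφ _) (fun i => μ i.succ)
      (fun i => y i.succ)
    have e0 : 0 ≤ EX (fun i : Fin n => kk (μ i.succ) (y i.succ)) (fun ν => φ (Fin.cons false ν)) :=
      EX_nonneg (fun _ _ => kk_nonneg _ _ _) fun _ => hφ _
    have e1 : 0 ≤ EX (fun i : Fin n => kk (μ i.succ) (y i.succ)) (fun ν => φ (Fin.cons true ν)) :=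
      EX_nonneg (fun _ _ => kk_nonneg _ _ _) fun _ => hφ _
    rw [Fin.prod_univ_succ, EX_kk_cons, Rec]
    set P := ∏ i : Fin n, if y i.succ = true then (1 / 2 : ℝ) else 1 with hP
    have hP0 : 0 ≤ P := prod_nonneg fun i _ => by split_ifs <;> norm_num
    set E0 := EX (fun i : Fin n => kk (μ i.succ) (y i.succ)) (fun ν => φ (Fin.cons false ν))
    set E1 := EX (fun i : Fin n => kk (μ i.succ) (y i.succ)) (fun ν => φ (Fin.cons true ν))
    set m0 := Rec cM n (fun ν => φ (Fin.cons false ν)) (fun i => μ i.succ)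
    set m1 := Rec cM n (fun ν => φ (Fin.cons true ν)) (fun i => μ i.succ)
    have p0 : 0 ≤ P * E0 := mul_nonneg hP0 e0
    have p1 : 0 ≤ P * E1 := mul_nonneg hP0 e1
    have h1 := gam_pos
    have h2 := gam_lt
    have h3 := tau_pos
    have h4 := tau_lt
    set f : ℝ := if y 0 = true then (1 / 2 : ℝ) else 1 with hf
    have f1 : f ≤ 1 := by rw [hf]; split_ifs <;> norm_num
    have f0 : 0 ≤ f := by rw [hf]; split_ifs <;> norm_num
    have key : ∀ k1 k0 : ℝ, 0 ≤ k1 → 0 ≤ k0 → f * P * (k1 * E1 + k0 * E0) ≤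
        k0 * m0 + k1 * m1 := by
      intro k1 k0 hk1 hk0
      have q1 := mul_le_mul_of_nonneg_left i1 hk1
      have q0 := mul_le_mul_of_nonneg_left i0 hk0
      have q2 : 0 ≤ P * (k1 * E1 + k0 * E0) :=
        mul_nonneg hP0 (add_nonneg (mul_nonneg hk1 e1) (mul_nonneg hk0 e0))
      have q3 : f * P * (k1 * E1 + k0 * E0) ≤ P * (k1 * E1 + k0 * E0) := by
        rw [mul_assoc]
        exact mul_le_of_le_one_left q2 f1
      refine q3.trans ?_
      calc P * (k1 * E1 + k0 * E0) = k1 * (P * E1) + k0 * (P * E0) := by ring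
        _ ≤ k0 * m0 + k1 * m1 := by linarith
    cases hμ : μ 0 with
    | x =>
      simp only [kk, cM]
      rcases hy : y 0 with _ | _
      · rw [hy] at hf
        simp only [Bool.false_eq_true, if_false] at hf
        simp only [Bool.true_eq_false, if_false, if_true, zero_mul, one_mul, zero_add]
        rw [hf, one_mul]
        exact le_max_of_le_left i0
      · rw [hy] at hf
        simp only [if_true] at hf
        simp only [Bool.false_eq_true, if_false, if_true, zero_mul, one_mul, add_zero]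
        rw [hf]
        refine le_max_of_le_right ?_
        linarith
    | g =>
      have := key 1 0 zero_le_one le_rfl
      simp only [kk, cM]
      simpa using this
    | a =>
      have := key gam (1 - gam) h1.le (by linarith)
      simp only [kk, cM]
      simpa using this
    | r =>
      have := key tau (1 - tau) h3.le (by linarith)
      simp only [kk, cM]
      simpa using this
    | o =>
      have := key 0 1 le_rfl zero_le_one
      simp only [kk, cM]
      simpa using this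

theorem X_le : ∀ (n : ℕ) (φ : (Fin n → Bool) → ℝ) (_ : ∀ ν, 0 ≤ φ ν) (μ : Fin n → Ro)
    (y : Fin n → Bool),
    Rec cX n φ μ ≤ (∏ i, if y i = true then (2 : ℝ) else 1) * EX (fun i => kk (μ i) (y i)) φ
  | 0, φ, _, μ, y => by
    rw [EX_zero_fin]
    simp [Rec]
  | n + 1, φ, hφ, μ, y => by
    have i0 := X_le n (fun ν => φ (Fin.cons false ν)) (fun ν => hφ _) (fun i => μ i.succ)
      (fun i => y i.succ)
    have i1 := X_le n (fun ν => φ (Fin.cons true ν)) (fun ν => hφ _) (fun i => μ i.succ)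
      (fun i => y i.succ)
    have e0 : 0 ≤ EX (fun i : Fin n => kk (μ i.succ) (y i.succ)) (fun ν => φ (Fin.cons false ν)) :=
      EX_nonneg (fun _ _ => kk_nonneg _ _ _) fun _ => hφ _
    have e1 : 0 ≤ EX (fun i : Fin n => kk (μ i.succ) (y i.succ)) (fun ν => φ (Fin.cons true ν)) :=
      EX_nonneg (fun _ _ => kk_nonneg _ _ _) fun _ => hφ _
    rw [Fin.prod_univ_succ, EX_kk_cons, Rec]
    set P := ∏ i : Fin n, if y i.succ = true then (2 : ℝ) else 1 with hP
    have hP0 : 0 ≤ P := prod_nonneg fun i _ => by split_ifs <;> norm_num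
    set E0 := EX (fun i : Fin n => kk (μ i.succ) (y i.succ)) (fun ν => φ (Fin.cons false ν))
    set E1 := EX (fun i : Fin n => kk (μ i.succ) (y i.succ)) (fun ν => φ (Fin.cons true ν))
    set m0 := Rec cX n (fun ν => φ (Fin.cons false ν)) (fun i => μ i.succ)
    set m1 := Rec cX n (fun ν => φ (Fin.cons true ν)) (fun i => μ i.succ)
    have p0 : 0 ≤ P * E0 := mul_nonneg hP0 e0
    have p1 : 0 ≤ P * E1 := mul_nonneg hP0 e1
    have h1 := gam_pos
    have h2 := gam_lt
    have h3 := tau_pos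
    have h4 := tau_lt
    set f : ℝ := if y 0 = true then (2 : ℝ) else 1 with hf
    have f1 : 1 ≤ f := by rw [hf]; split_ifs <;> norm_num
    have key : ∀ k1 k0 : ℝ, 0 ≤ k1 → 0 ≤ k0 → k0 * m0 + k1 * m1 ≤
        f * P * (k1 * E1 + k0 * E0) := by
      intro k1 k0 hk1 hk0
      have q1 := mul_le_mul_of_nonneg_left i1 hk1
      have q0 := mul_le_mul_of_nonneg_left i0 hk0
      have q2 : 0 ≤ P * (k1 * E1 + k0 * E0) :=
        mul_nonneg hP0 (add_nonneg (mul_nonneg hk1 e1) (mul_nonneg hk0 e0))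
      have q3 : P * (k1 * E1 + k0 * E0) ≤ f * P * (k1 * E1 + k0 * E0) := by
        rw [mul_assoc f]
        exact le_mul_of_one_le_left q2 f1
      refine le_trans ?_ q3
      calc k0 * m0 + k1 * m1 ≤ k1 * (P * E1) + k0 * (P * E0) := by linarith
        _ = P * (k1 * E1 + k0 * E0) := by ring
    cases hμ : μ 0 with
    | x =>
      simp only [kk, cX]
      rcases hy : y 0 with _ | _
      · rw [hy] at hf
        simp only [Bool.false_eq_true, if_false] at hf
        simp only [Bool.true_eq_false, if_false, if_true, zero_mul, one_mul, zero_add]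
        rw [hf, one_mul]
        exact min_le_of_left_le i0
      · rw [hy] at hf
        simp only [if_true] at hf
        simp only [Bool.false_eq_true, if_false, if_true, zero_mul, one_mul, add_zero]
        rw [hf]
        refine min_le_of_right_le ?_
        linarith
    | g =>
      have := key 1 0 zero_le_one le_rfl
      simp only [kk, cX]
      simpa using this
    | a =>
      have := key gam (1 - gam) h1.le (by linarith)
      simp only [kk, cX]
      simpa using this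
    | r =>
      have := key tau (1 - tau) h3.le (by linarith)
      simp only [kk, cX]
      simpa using this
    | o =>
      have := key 0 1 le_rfl zero_le_one
      simp only [kk, cX]
      simpa using this

/-- weights for the count -/
noncomputable def wC (p : ℝ) : Ro → ℝ
  | .x => p
  | .g => vv
  | .a => 1 / 8
  | .r => 1 / 4
  | .o => 1 - p - vv - 1 / 8 - 1 / 4

/-- weights for the rarity -/
noncomputable def wJ : Ro → ℝ
  | .x => vv
  | .g => vv
  | .a => 1 / 8
  | .r => 1 / 4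
  | .o => 1 - vv - vv - 1 / 8 - 1 / 4

theorem wC_sum (p : ℝ) : ∑ l, wC p l = 1 := by
  rw [sum_Ro]
  simp only [wC]
  ring

theorem wJ_sum : ∑ l, wJ l = 1 := by
  rw [sum_Ro]
  simp only [wJ]
  ring

theorem wC_nonneg {p : ℝ} (hp : 0 ≤ p) (hp1 : p ≤ 1 / 8) (l : Ro) : 0 ≤ wC p l := by
  have h := vv_pos
  have h' : vv ≤ 1 / 8 := by unfold vv; norm_num
  cases l <;> simp only [wC] <;> linarith

theorem wJ_nonneg (l : Ro) : 0 ≤ wJ l := by
  have h := vv_pos
  have h' : vv ≤ 1 / 8 := by unfold vv; norm_num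
  cases l <;> simp only [wJ] <;> linarith

/-- the natural law -/
noncomputable def be (s : Bool) : ℝ := if s = true then th else 1 - th

theorem be_nonneg (s : Bool) : 0 ≤ be s := by
  have h1 := th_pos
  have h2 := th_lt
  unfold be
  split_ifs <;> linarith

theorem be_sum : ∑ s, be s = 1 := by
  rw [Fintype.sum_bool]
  simp [be]

/-- Cauchy-Schwarz -/
theorem EX_cs {E L : Type*} [Fintype E] [DecidableEq E] [Fintype L] [DecidableEq L]
    (w : E → L → ℝ) (hw : ∀ e l, 0 ≤ w e l) (f g : (E → L) → ℝ) :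
    (EX w fun ω => f ω * g ω) ^ 2 ≤ (EX w fun ω => f ω ^ 2) * EX w fun ω => g ω ^ 2 := by
  unfold EX
  have h : ∀ ω : E → L, 0 ≤ ∏ e, w e (ω e) := fun ω => prod_nonneg fun e _ => hw e _
  have := sum_mul_sq_le_sq_mul_sq (univ : Finset (E → L))
    (fun ω => Real.sqrt (∏ e, w e (ω e)) * f ω) (fun ω => Real.sqrt (∏ e, w e (ω e)) * g ω)
  have e1 : ∀ ω : E → L, Real.sqrt (∏ e, w e (ω e)) * f ω * (Real.sqrt (∏ e, w e (ω e)) * g ω) =
      (∏ e, w e (ω e)) * (f ω * g ω) := by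
    intro ω
    have := Real.mul_self_sqrt (h ω)
    calc _ = (Real.sqrt (∏ e, w e (ω e)) * Real.sqrt (∏ e, w e (ω e))) * (f ω * g ω) := by ring
      _ = _ := by rw [this]
  have e2 : ∀ (k : (E → L) → ℝ) (ω : E → L), (Real.sqrt (∏ e, w e (ω e)) * k ω) ^ 2 =
      (∏ e, w e (ω e)) * k ω ^ 2 := by
    intro k ω
    rw [mul_pow, Real.sq_sqrt (h ω)]
  simp only [e1, e2] at this
  exact this

/-- one coordinate for the count -/
def S2 : Prop := ∀ {a b p : ℝ}, 0 ≤ a → 0 ≤ b → 0 ≤ p → p ≤ (2⁻¹ : ℝ) ^ 23 →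
  p * (max a (b / 2)) ^ 4 + vv * b ^ 4 + 1 / 8 * ((1 - gam) * a + gam * b) ^ 4 +
    1 / 4 * ((1 - tau) * a + tau * b) ^ 4 + (1 - p - vv - 1 / 8 - 1 / 4) * a ^ 4 ≤
    ((1 - th) * a ^ 2 + th * b ^ 2) ^ 2

/-- one coordinate for the rarity -/
def S1 : Prop := ∀ {B0 B1 C A : ℝ}, 0 ≤ B1 → B1 ≤ B0 → 0 < A → A ≤ C →
  vv * (B1 ^ 14 / (min C (2 * A)) ^ 6) + vv * (B1 ^ 14 / A ^ 6) +
    1 / 8 * (B0 ^ 14 / ((1 - gam) * C + gam * A) ^ 6) +
    1 / 4 * (((1 - tau) * B0 + tau * B1) ^ 14 / ((1 - tau) * C + tau * A) ^ 6) +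
    (1 - vv - vv - 1 / 8 - 1 / 4) * (B0 ^ 14 / C ^ 6) ≤
    (1 - th) * (B0 ^ 14 / C ^ 6) + th * (B1 ^ 14 / A ^ 6)

theorem cnt_fin (h2 : S2) {p : ℝ} (hp : 0 ≤ p) (hp1 : p ≤ (2⁻¹ : ℝ) ^ 23) :
    ∀ (n : ℕ) (φ : (Fin n → Bool) → ℝ) (_ : ∀ ν, 0 ≤ φ ν),
    EX (fun _ : Fin n => wC p) (fun μ => (Rec cM n φ μ) ^ 4) ≤
      (EX (fun _ : Fin n => be) fun ν => (φ ν) ^ 2) ^ 2
  | 0, φ, _ => by
    have : EX (fun _ : Fin 0 => wC p) (fun μ => (Rec cM 0 φ μ) ^ 4) = (φ Fin.elim0) ^ 4 := by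
      simp only [EX, Fintype.sum_unique, univ_eq_empty, prod_empty, one_mul, Rec]
    rw [this, EX_zero_fin]
    exact le_of_eq (by ring)
  | n + 1, φ, hφ => by
    have hp8 : p ≤ 1 / 8 := hp1.trans (by norm_num)
    have hw : ∀ (i : Fin n) (l : Ro), 0 ≤ wC p l := fun _ l => wC_nonneg hp hp8 l
    have i0 := cnt_fin h2 hp hp1 n (fun ν => φ (Fin.cons false ν)) (fun ν => hφ _)
    have i1 := cnt_fin h2 hp hp1 n (fun ν => φ (Fin.cons true ν)) (fun ν => hφ _)
    rw [EX_cons, EX_cons, sum_Ro, Fintype.sum_bool]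
    simp only [Rec_cons]
    set M0 := Rec cM n (fun ν => φ (Fin.cons false ν)) with hM0
    set M1 := Rec cM n (fun ν => φ (Fin.cons true ν)) with hM1
    have n0 : ∀ μ, 0 ≤ M0 μ := fun μ => M_nonneg n _ (fun ν => hφ _) μ
    have n1 : ∀ μ, 0 ≤ M1 μ := fun μ => M_nonneg n _ (fun ν => hφ _) μ
    set X0 := EX (fun _ : Fin n => be) fun ν => (φ (Fin.cons false ν)) ^ 2 with hX0
    set X1 := EX (fun _ : Fin n => be) fun ν => (φ (Fin.cons true ν)) ^ 2 with hX1
    have x0 : 0 ≤ X0 := EX_nonneg (fun _ s => be_nonneg s) fun _ => sq_nonneg _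
    have x1 : 0 ≤ X1 := EX_nonneg (fun _ s => be_nonneg s) fun _ => sq_nonneg _
    have step : (wC p .x * EX (fun _ : Fin n => wC p) (fun μ => (cM .x (M0 μ) (M1 μ)) ^ 4) +
        wC p .g * EX (fun _ : Fin n => wC p) (fun μ => (cM .g (M0 μ) (M1 μ)) ^ 4) +
        wC p .a * EX (fun _ : Fin n => wC p) (fun μ => (cM .a (M0 μ) (M1 μ)) ^ 4) +
        wC p .r * EX (fun _ : Fin n => wC p) (fun μ => (cM .r (M0 μ) (M1 μ)) ^ 4) +
        wC p .o * EX (fun _ : Fin n => wC p) (fun μ => (cM .o (M0 μ) (M1 μ)) ^ 4)) ≤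
        EX (fun _ : Fin n => wC p) (fun μ => ((1 - th) * M0 μ ^ 2 + th * M1 μ ^ 2) ^ 2) := by
      rw [← EX_mul, ← EX_mul, ← EX_mul, ← EX_mul, ← EX_mul, ← EX_add, ← EX_add, ← EX_add,
        ← EX_add]
      exact EX_mono hw fun μ => h2 (n0 μ) (n1 μ) hp hp1
    refine step.trans ?_
    have cs := EX_cs (fun _ : Fin n => wC p) hw (fun μ => M0 μ ^ 2) (fun μ => M1 μ ^ 2)
    simp only [← pow_mul] at cs
    have e0 : 0 ≤ EX (fun _ : Fin n => wC p) (fun μ => M0 μ ^ 2 * M1 μ ^ 2) :=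
      EX_nonneg hw fun μ => mul_nonneg (sq_nonneg _) (sq_nonneg _)
    have f0 : 0 ≤ EX (fun _ : Fin n => wC p) (fun μ => M0 μ ^ 4) :=
      EX_nonneg hw fun μ => pow_nonneg (n0 μ) 4
    have f1 : 0 ≤ EX (fun _ : Fin n => wC p) (fun μ => M1 μ ^ 4) :=
      EX_nonneg hw fun μ => pow_nonneg (n1 μ) 4
    have cr : EX (fun _ : Fin n => wC p) (fun μ => M0 μ ^ 2 * M1 μ ^ 2) ≤ X0 * X1 := by
      refine abs_le_of_sq_le_sq' ?_ (mul_nonneg x0 x1) |>.2
      refine cs.trans ?_
      rw [mul_pow]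
      exact mul_le_mul i0 i1 f1 (by positivity)
    have ex : EX (fun _ : Fin n => wC p) (fun μ => ((1 - th) * M0 μ ^ 2 + th * M1 μ ^ 2) ^ 2) =
        (1 - th) ^ 2 * EX (fun _ : Fin n => wC p) (fun μ => M0 μ ^ 4) +
        2 * (1 - th) * th * EX (fun _ : Fin n => wC p) (fun μ => M0 μ ^ 2 * M1 μ ^ 2) +
        th ^ 2 * EX (fun _ : Fin n => wC p) (fun μ => M1 μ ^ 4) := by
      rw [← EX_mul, ← EX_mul, ← EX_mul, ← EX_add, ← EX_add]
      congr 1
      funext μ
      ring
    rw [ex]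
    have t1 := th_pos
    have t2 := th_lt
    have q0 := mul_le_mul_of_nonneg_left i0 (sq_nonneg (1 - th))
    have q1 := mul_le_mul_of_nonneg_left i1 (sq_nonneg th)
    have q2 := mul_le_mul_of_nonneg_left cr
      (mul_nonneg (mul_nonneg (by norm_num : (0 : ℝ) ≤ 2) (by linarith : 0 ≤ 1 - th)) t1.le)
    have b1 : be true = th := by simp [be]
    have b0 : be false = 1 - th := by simp [be]
    rw [b1, b0]
    calc _ ≤ (1 - th) ^ 2 * X0 ^ 2 + 2 * (1 - th) * th * (X0 * X1) + th ^ 2 * X1 ^ 2 := by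
          linarith
      _ = _ := by ring

theorem jrl_fin (h1 : S1) :
    ∀ (n : ℕ) (φ : (Fin n → Bool) → ℝ) (_ : ∀ ν, 0 < φ ν) (_ : Antitone φ),
    EX (fun _ : Fin n => wJ) (fun μ => (Rec cB n φ μ) ^ 14 / (Rec cX n φ μ) ^ 6) ≤
      EX (fun _ : Fin n => be) fun ν => (φ ν) ^ 8
  | 0, φ, hφ, _ => by
    have : EX (fun _ : Fin 0 => wJ) (fun μ => (Rec cB 0 φ μ) ^ 14 / (Rec cX 0 φ μ) ^ 6) =
        (φ Fin.elim0) ^ 14 / (φ Fin.elim0) ^ 6 := by
      simp only [EX, Fintype.sum_unique, univ_eq_empty, prod_empty, one_mul, Rec]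
    rw [this, EX_zero_fin]
    have h := (hφ Fin.elim0).ne'
    refine le_of_eq ?_
    rw [div_eq_iff (pow_ne_zero _ h)]
    ring
  | n + 1, φ, hφ, hd => by
    have d0 : Antitone fun ν : Fin n → Bool => φ (Fin.cons false ν) := fun ν ν' h => by
      refine hd ?_
      intro i
      refine Fin.cases ?_ (fun i => ?_) i
      · exact le_rfl
      · exact h i
    have d1 : Antitone fun ν : Fin n → Bool => φ (Fin.cons true ν) := fun ν ν' h => by
      refine hd ?_
      intro i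
      refine Fin.cases ?_ (fun i => ?_) i
      · exact le_rfl
      · exact h i
    have d2 : ∀ ν : Fin n → Bool, φ (Fin.cons true ν) ≤ φ (Fin.cons false ν) := fun ν => by
      refine hd ?_
      intro i
      refine Fin.cases ?_ (fun i => ?_) i
      · exact Bool.false_le _
      · exact le_rfl
    have i0 := jrl_fin h1 n (fun ν => φ (Fin.cons false ν)) (fun ν => hφ _) d0
    have i1 := jrl_fin h1 n (fun ν => φ (Fin.cons true ν)) (fun ν => hφ _) d1
    rw [EX_cons, EX_cons, sum_Ro, Fintype.sum_bool]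
    simp only [Rec_cons]
    set B0 := Rec cB n (fun ν => φ (Fin.cons false ν)) with hB0
    set B1 := Rec cB n (fun ν => φ (Fin.cons true ν)) with hB1
    set C := Rec cX n (fun ν => φ (Fin.cons false ν)) with hC
    set A := Rec cX n (fun ν => φ (Fin.cons true ν)) with hA
    have nB : ∀ μ, 0 ≤ B1 μ := fun μ => B_nonneg n _ (fun ν => (hφ _).le) μ
    have pA : ∀ μ, 0 < A μ := fun μ => X_pos n _ (fun ν => hφ _) μ
    have mB : ∀ μ, B1 μ ≤ B0 μ := fun μ => B_mono n _ _ d2 μ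
    have mA : ∀ μ, A μ ≤ C μ := fun μ => X_mono n _ _ d2 μ
    have hw : ∀ (i : Fin n) (l : Ro), 0 ≤ wJ l := fun _ l => wJ_nonneg l
    have step : (wJ .x * EX (fun _ : Fin n => wJ)
          (fun μ => (cB .x (B0 μ) (B1 μ)) ^ 14 / (cX .x (C μ) (A μ)) ^ 6) +
        wJ .g * EX (fun _ : Fin n => wJ)
          (fun μ => (cB .g (B0 μ) (B1 μ)) ^ 14 / (cX .g (C μ) (A μ)) ^ 6) +
        wJ .a * EX (fun _ : Fin n => wJ)
          (fun μ => (cB .a (B0 μ) (B1 μ)) ^ 14 / (cX .a (C μ) (A μ)) ^ 6) +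
        wJ .r * EX (fun _ : Fin n => wJ)
          (fun μ => (cB .r (B0 μ) (B1 μ)) ^ 14 / (cX .r (C μ) (A μ)) ^ 6) +
        wJ .o * EX (fun _ : Fin n => wJ)
          (fun μ => (cB .o (B0 μ) (B1 μ)) ^ 14 / (cX .o (C μ) (A μ)) ^ 6)) ≤
        EX (fun _ : Fin n => wJ) (fun μ => (1 - th) * (B0 μ ^ 14 / C μ ^ 6) +
          th * (B1 μ ^ 14 / A μ ^ 6)) := by
      rw [← EX_mul, ← EX_mul, ← EX_mul, ← EX_mul, ← EX_mul, ← EX_add, ← EX_add, ← EX_add,
        ← EX_add]
      exact EX_mono hw fun μ => h1 (nB μ) (mB μ) (pA μ) (mA μ)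
    refine step.trans ?_
    rw [EX_add, EX_mul, EX_mul]
    have t1 := th_pos
    have t2 := th_lt
    have q0 := mul_le_mul_of_nonneg_left i0 (by linarith : 0 ≤ 1 - th)
    have q1 := mul_le_mul_of_nonneg_left i1 t1.le
    have b1 : be true = th := by simp [be]
    have b0 : be false = 1 - th := by simp [be]
    rw [b1, b0]
    linarith

section

variable {E : Type*} [Fintype E] [DecidableEq E]

theorem card_equiv (σ : E ≃ Fin (Fintype.card E)) (y : E → Bool) :
    (univ.filter fun i : Fin (Fintype.card E) => (y ∘ σ.symm) i = true).card =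
      (univ.filter fun e => y e = true).card := by
  rw [← Finset.card_map σ.toEmbedding]
  congr 1
  ext i
  simp [Finset.mem_map_equiv]

/-- **The count.** -/
theorem cnt_event (h2 : S2) {p : ℝ} (hp : 0 ≤ p) (hp1 : p ≤ (2⁻¹ : ℝ) ^ 23)
    (ψ : (E → Bool) → ℝ) (hψ : ∀ ν, 0 ≤ ψ ν) (Ev : (E → Ro) → Prop) [DecidablePred Ev]
    {t : ℝ} (ht : 0 ≤ t) (k : ℕ)
    (hEv : ∀ μ, Ev μ → ∃ y : E → Bool, (univ.filter fun e => y e = true).card ≤ k ∧
      t ≤ EX (fun e => kk (μ e) (y e)) ψ) :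
    ((1 / 2) ^ k * t) ^ 4 * EX (fun _ : E => wC p) (fun μ => if Ev μ then 1 else 0) ≤
      (EX (fun _ : E => be) fun ν => (ψ ν) ^ 2) ^ 2 := by
  set σ := Fintype.equivFin E
  set n := Fintype.card E
  have hp8 : p ≤ 1 / 8 := hp1.trans (by norm_num)
  have a1 := cnt_fin h2 hp hp1 n (fun ν => ψ (ν ∘ σ)) (fun ν => hψ _)
  have a2 : EX (fun _ : E => be) (fun ν => (ψ ν) ^ 2) =
      EX (fun _ : Fin n => be) (fun ν => (ψ (ν ∘ σ)) ^ 2) := by
    rw [EX_reindex σ]
  rw [a2]
  refine le_trans ?_ a1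
  rw [EX_reindex σ, ← EX_mul]
  refine EX_mono (fun i l => wC_nonneg hp hp8 l) fun μ => ?_
  by_cases hr : Ev (μ ∘ σ)
  · rw [if_pos hr, mul_one]
    obtain ⟨y, hy, hty⟩ := hEv _ hr
    have b1 := le_M n (fun ν => ψ (ν ∘ σ)) (fun ν => hψ _) μ (y ∘ σ.symm)
    have b2 : EX (fun e => kk ((μ ∘ σ) e) (y e)) ψ =
        EX (fun i => kk (μ i) ((y ∘ σ.symm) i)) (fun ν => ψ (ν ∘ σ)) := by
      rw [EX_reindex σ]
      congr 1
      funext i
      simp
    rw [b2] at hty
    have b3 : (1 / 2 : ℝ) ^ k ≤ ∏ i, if (y ∘ σ.symm) i = true then (1 / 2 : ℝ) else 1 := by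
      rw [← prod_filter, prod_const, card_equiv]
      exact pow_le_pow_of_le_one (by norm_num) (by norm_num) hy
    have b4 : (1 / 2 : ℝ) ^ k * t ≤ Rec cM n (fun ν => ψ (ν ∘ σ)) μ := by
      refine le_trans ?_ b1
      exact mul_le_mul b3 hty ht (le_trans (by positivity) b3)
    exact pow_le_pow_left₀ (by positivity) b4 4
  · rw [if_neg hr, mul_zero]
    positivity

/-- **The rarity.** -/
theorem jrl_event (h1 : S1) (φ : (E → Bool) → ℝ) (hφ : ∀ ν, 0 ≤ φ ν) (hφ1 : ∀ ν, φ ν ≤ 1)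
    (hd : Antitone φ) (Ev : (E → Ro) → Prop) [DecidablePred Ev] {ε α : ℝ} (hε : 0 ≤ ε)
    (hα : 0 < α) (hα1 : α ≤ 1) (k : ℕ)
    (hEv : ∀ μ, Ev μ → (∃ y : E → Bool, (univ.filter fun e => y e = true).card ≤ k ∧
      EX (fun e => kk (μ e) (y e)) φ ≤ α) ∧ ε ≤ EX (fun e => kb (μ e)) φ) :
    ε ^ 14 * EX (fun _ : E => wJ) (fun μ => if Ev μ then 1 else 0) ≤
      (2 ^ (k + 1) * α) ^ 6 * 2 ^ 8 := by
  set σ := Fintype.equivFin E
  set n := Fintype.card E
  set φ' : (Fin n → Bool) → ℝ := fun ν => φ (ν ∘ σ) + α with hφ'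
  have hpos : ∀ ν, 0 < φ' ν := fun ν => add_pos_of_nonneg_of_pos (hφ _) hα
  have hd' : Antitone φ' := by
    intro ν ν' h
    have : φ (ν' ∘ σ) ≤ φ (ν ∘ σ) := hd fun e => h (σ e)
    simp only [hφ']
    linarith
  have a1 := jrl_fin h1 n φ' hpos hd'
  have a2 : EX (fun _ : Fin n => be) (fun ν => (φ' ν) ^ 8) ≤ 2 ^ 8 := by
    calc EX (fun _ : Fin n => be) (fun ν => (φ' ν) ^ 8)
        ≤ EX (fun _ : Fin n => be) (fun _ => (2 : ℝ) ^ 8) := by
          refine EX_mono (fun _ s => be_nonneg s) fun ν => ?_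
          refine pow_le_pow_left₀ (hpos ν).le ?_ 8
          have := hφ1 (ν ∘ σ)
          simp only [hφ']
          linarith
      _ = 2 ^ 8 := EX_one _ (fun _ => be_sum) _
  have hα6 : 0 < (2 ^ (k + 1) * α) ^ 6 := by positivity
  have a3 : ε ^ 14 * EX (fun _ : E => wJ) (fun μ => if Ev μ then 1 else 0) ≤
      (2 ^ (k + 1) * α) ^ 6 * EX (fun _ : Fin n => wJ)
        (fun μ => (Rec cB n φ' μ) ^ 14 / (Rec cX n φ' μ) ^ 6) := by
    rw [EX_reindex σ, ← EX_mul, ← EX_mul]
    refine EX_mono (fun _ l => wJ_nonneg l) fun μ => ?_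
    have X0 := X_pos n φ' hpos μ
    have B0 := B_nonneg n φ' (fun ν => (hpos ν).le) μ
    by_cases hr : Ev (μ ∘ σ)
    · rw [if_pos hr, mul_one]
      obtain ⟨⟨y, hy, hty⟩, hB⟩ := hEv _ hr
      have b1 := X_le n φ' (fun ν => (hpos ν).le) μ (y ∘ σ.symm)
      have b2 : EX (fun i => kk (μ i) ((y ∘ σ.symm) i)) φ' =
          EX (fun e => kk ((μ ∘ σ) e) (y e)) φ + α := by
        rw [EX_reindex σ (fun e => kk ((μ ∘ σ) e) (y e))]
        simp only [hφ']
        rw [EX_add, EX_one (fun i => kk (μ i) ((y ∘ σ.symm) i)) (fun i => kk_sum _ _)]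
        congr 2
        funext i
        simp
      have b3 : (∏ i, if (y ∘ σ.symm) i = true then (2 : ℝ) else 1) ≤ 2 ^ k := by
        rw [← prod_filter, prod_const, card_equiv]
        exact pow_le_pow_right₀ (by norm_num) hy
      have b4 : Rec cX n φ' μ ≤ 2 ^ (k + 1) * α := by
        refine b1.trans ?_
        rw [b2]
        have : EX (fun e => kk ((μ ∘ σ) e) (y e)) φ + α ≤ 2 * α := by linarith
        calc _ ≤ (2 : ℝ) ^ k * (2 * α) := mul_le_mul b3 this
              (add_nonneg (EX_nonneg (fun _ _ => kk_nonneg _ _ _) hφ) hα.le) (by positivity)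
          _ = _ := by ring
      have b5 : ε ≤ Rec cB n φ' μ := by
        rw [← EX_kb]
        refine hB.trans ?_
        rw [EX_reindex σ (fun e => kb ((μ ∘ σ) e))]
        simp only [hφ']
        rw [EX_add, EX_one (fun i => kb (μ i)) (fun i => kb_sum _)]
        have : (fun e' : Fin n => kb ((μ ∘ σ) (σ.symm e'))) = fun i => kb (μ i) := by
          funext i
          simp
        rw [this]
        linarith
      rw [← mul_div_assoc, le_div_iff₀ (by positivity)]
      calc ε ^ 14 * Rec cX n φ' μ ^ 6 ≤ Rec cB n φ' μ ^ 14 * (2 ^ (k + 1) * α) ^ 6 :=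
            mul_le_mul (pow_le_pow_left₀ hε b5 14) (pow_le_pow_left₀ X0.le b4 6) (by positivity)
              (by positivity)
        _ = _ := by ring
    · rw [if_neg hr, mul_zero]
      positivity
  calc _ ≤ _ := a3
    _ ≤ (2 ^ (k + 1) * α) ^ 6 * 2 ^ 8 := mul_le_mul_of_nonneg_left (a1.trans a2) hα6.le

end

end Vale.Agent.P331.H498
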